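import Mathlib
import Vale.Agent.P205.Tw.Main

open scoped ContDiff InnerProductSpace Real

namespace Vale.Agent.Results.P205.A0_TorusCircleInvariantAll

/-- Every smooth Riemannian metric `E(x) dx² + 2 F(x) dx dy + G(x) dy²` on the torus `ℝ²/ℤ²` (the coefficients are
smooth 1-periodic functions of `x` alone, `G > 0`, `E G - F² > 0`) is induced by a smooth `ℤ²`-periodic map
`Φ : ℝ² → ℝ⁴`: the torus with this metric admits a smooth isometric immersion into Euclidean 4-space.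
No condition on the twist `∫₀¹ F / G`. -/
theorem result (E F G : ℝ → ℝ)
    (hE : ContDiff ℝ ∞ E) (hF : ContDiff ℝ ∞ F) (hG : ContDiff ℝ ∞ G)
    (pE : Function.Periodic E 1) (pF : Function.Periodic F 1) (pG : Function.Periodic G 1)
    (posG : ∀ x, 0 < G x) (posdet : ∀ x, 0 < E x * G x - F x ^ 2) :
    ∃ Φ : ℝ × ℝ → EuclideanSpace ℝ (Fin 4), ContDiff ℝ ∞ Φ ∧
      (∀ x y, Φ (x + 1, y) = Φ (x, y)) ∧ (∀ x y, Φ (x, y + 1) = Φ (x, y)) ∧
      ∀ p v w : ℝ × ℝ, ⟪fderiv ℝ Φ p v, fderiv ℝ Φ p w⟫_ℝ =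
        E p.1 * v.1 * w.1 + F p.1 * (v.1 * w.2 + v.2 * w.1) + G p.1 * v.2 * w.2 :=
  Vale.Agent.P205.Tw.main E F G hE hF hG pE pF pG posG posdet

end Vale.Agent.Results.P205.A0_TorusCircleInvariantAll
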