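import Mathlib

open scoped ContDiff InnerProductSpace Real
open MeasureTheory intervalIntegral

namespace Vale.Agent.Results.P205.TorusCircleInvariant

theorem hasDerivAt_primitive {v : ℝ → ℝ} (hc : Continuous v) (x : ℝ) :
    HasDerivAt (fun x => ∫ t in (0:ℝ)..x, v t) (v x) x :=
  intervalIntegral.integral_hasDerivAt_right (hc.intervalIntegrable _ _)
      (hc.stronglyMeasurableAtFilter _ _) hc.continuousAt

theorem contDiff_primitive {v : ℝ → ℝ} (hv : ContDiff ℝ ∞ v) :
    ContDiff ℝ ∞ (fun x => ∫ t in (0:ℝ)..x, v t) := by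
  rw [contDiff_infty_iff_deriv]
  have hc : Continuous v := hv.continuous
  refine ⟨fun x => (hasDerivAt_primitive hc x).differentiableAt, ?_⟩
  have : deriv (fun x => ∫ t in (0:ℝ)..x, v t) = v := by
    funext x
    exact (hasDerivAt_primitive hc x).deriv
  rw [this]
  exact hv

theorem primitive_add_one {v : ℝ → ℝ} (hc : Continuous v) (hp : Function.Periodic v 1) (x : ℝ) :
    (∫ t in (0:ℝ)..(x + 1), v t) = (∫ t in (0:ℝ)..x, v t) + ∫ t in (0:ℝ)..1, v t := by
  rw [← intervalIntegral.integral_add_adjacent_intervals (hc.intervalIntegrable 0 x)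
    (hc.intervalIntegrable x (x + 1))]
  congr 1
  have := hp.intervalIntegral_add_eq x 0
  simpa using this

theorem periodic_bounded {h : ℝ → ℝ} (hc : Continuous h) (hp : Function.Periodic h 1) :
    ∃ C, ∀ x, h x ≤ C := by
  obtain ⟨C, hC⟩ := (isCompact_Icc (a := (0:ℝ)) (b := 1)).exists_bound_of_continuousOn
    hc.continuousOn
  refine ⟨C, fun x => ?_⟩
  obtain ⟨y, hy, hxy⟩ := hp.exists_mem_Ico₀ one_pos x
  rw [hxy]
  exact (le_abs_self _).trans (hC y ⟨hy.1, hy.2.le⟩)

theorem periodic_deriv {h : ℝ → ℝ} (hp : Function.Periodic h 1) :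
    Function.Periodic (deriv h) 1 := by
  intro x
  have : (fun y => h (y + 1)) = h := funext hp
  calc deriv h (x + 1) = deriv (fun y => h (y + 1)) x := (deriv_comp_add_const h 1 x).symm
    _ = deriv h x := by rw [this]

/-- The explicit map. -/
noncomputable def immersion (r mu s : ℝ → ℝ) (m L : ℝ) (p : ℝ × ℝ) : EuclideanSpace ℝ (Fin 4) :=
  !₂[r p.1 * Real.cos (2 * π * (m * p.2 + mu p.1)), r p.1 * Real.sin (2 * π * (m * p.2 + mu p.1)),
    L / (2 * π) * Real.cos (2 * π * s p.1 / L), L / (2 * π) * Real.sin (2 * π * s p.1 / L)]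

theorem immersion_contDiff {r mu s : ℝ → ℝ} {m L : ℝ} (hr : ContDiff ℝ ∞ r)
    (hmu : ContDiff ℝ ∞ mu) (hs : ContDiff ℝ ∞ s) : ContDiff ℝ ∞ (immersion r mu s m L) := by
  rw [contDiff_euclidean]
  intro i
  have h1 : ContDiff ℝ ∞ (fun p : ℝ × ℝ => r p.1) := hr.comp contDiff_fst
  have h2 : ContDiff ℝ ∞ (fun p : ℝ × ℝ => mu p.1) := hmu.comp contDiff_fst
  have h3 : ContDiff ℝ ∞ (fun p : ℝ × ℝ => s p.1) := hs.comp contDiff_fst
  have h4 : ContDiff ℝ ∞ (fun p : ℝ × ℝ => p.2) := contDiff_snd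
  fin_cases i <;> simp only [immersion] <;> simp <;> fun_prop

theorem immersion_inner {r mu s : ℝ → ℝ} {m L : ℝ} {r' mu' s' : ℝ → ℝ} (hL : L ≠ 0)
    (hr : ∀ x, HasDerivAt r (r' x) x) (hmu : ∀ x, HasDerivAt mu (mu' x) x)
    (hs : ∀ x, HasDerivAt s (s' x) x) (p v w : ℝ × ℝ) :
    ⟪fderiv ℝ (immersion r mu s m L) p v, fderiv ℝ (immersion r mu s m L) p w⟫_ℝ =
      (r' p.1 ^ 2 + s' p.1 ^ 2) * v.1 * w.1 +
      (2 * π * r p.1) ^ 2 * (m * v.2 + mu' p.1 * v.1) * (m * w.2 + mu' p.1 * w.1) := by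
  set fstL := ContinuousLinearMap.fst ℝ ℝ ℝ with hfstL
  set sndL := ContinuousLinearMap.snd ℝ ℝ ℝ with hsndL
  have hR : HasFDerivAt (fun q : ℝ × ℝ => r q.1) (r' p.1 • fstL) p :=
    (hr p.1).comp_hasFDerivAt p hasFDerivAt_fst
  have hM : HasFDerivAt (fun q : ℝ × ℝ => mu q.1) (mu' p.1 • fstL) p :=
    (hmu p.1).comp_hasFDerivAt p hasFDerivAt_fst
  have hS : HasFDerivAt (fun q : ℝ × ℝ => s q.1) (s' p.1 • fstL) p :=
    (hs p.1).comp_hasFDerivAt p hasFDerivAt_fst
  have hA : HasFDerivAt (fun q : ℝ × ℝ => 2 * π * (m * q.2 + mu q.1))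
      ((2 * π) • (m • sndL + mu' p.1 • fstL)) p :=
    ((hasFDerivAt_snd.const_mul m).add hM).const_mul (2 * π)
  have hB : HasFDerivAt (fun q : ℝ × ℝ => 2 * π * s q.1 / L)
      (L⁻¹ • ((2 * π) • (s' p.1 • fstL))) p := by
    have := (hS.const_mul (2 * π)).const_mul L⁻¹
    refine this.congr_of_eventuallyEq (Filter.Eventually.of_forall fun q => ?_)
    simp only []
    field_simp
  have c0 := hR.mul hA.cos
  have c1 := hR.mul hA.sin
  have c2 := hB.cos.const_mul (L / (2 * π))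
  have c3 := hB.sin.const_mul (L / (2 * π))
  have hΦ : DifferentiableAt ℝ (immersion r mu s m L) p := by
    rw [differentiableAt_euclidean]
    intro i
    fin_cases i
    · exact c0.differentiableAt
    · exact c1.differentiableAt
    · exact c2.differentiableAt
    · exact c3.differentiableAt
  have key : ∀ i, HasFDerivAt (fun q => immersion r mu s m L q i)
      ((PiLp.proj 2 (fun _ : Fin 4 => ℝ) i) ∘L fderiv ℝ (immersion r mu s m L) p) p := by
    intro i
    exact ((PiLp.proj 2 (fun _ : Fin 4 => ℝ) i).hasFDerivAt).comp p hΦ.hasFDerivAt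
  have e0 := (key 0).unique c0
  have e1 := (key 1).unique c1
  have e2 := (key 2).unique c2
  have e3 := (key 3).unique c3
  have f0 : ∀ u, (fderiv ℝ (immersion r mu s m L) p u) 0 = _ := fun u => DFunLike.congr_fun e0 u
  have f1 : ∀ u, (fderiv ℝ (immersion r mu s m L) p u) 1 = _ := fun u => DFunLike.congr_fun e1 u
  have f2 : ∀ u, (fderiv ℝ (immersion r mu s m L) p u) 2 = _ := fun u => DFunLike.congr_fun e2 u
  have f3 : ∀ u, (fderiv ℝ (immersion r mu s m L) p u) 3 = _ := fun u => DFunLike.congr_fun e3 u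
  rw [PiLp.inner_apply, Fin.sum_univ_four]
  simp only [f0, f1, f2, f3]
  simp [hfstL, hsndL]
  have hcs := Real.sin_sq_add_cos_sq (2 * π * (m * p.2 + mu p.1))
  have hcs2 := Real.sin_sq_add_cos_sq (2 * π * s p.1 / L)
  have hpi : π ≠ 0 := Real.pi_ne_zero
  have h1 : ∀ t z : ℝ, L / (2 * π) * (t * (L⁻¹ * (2 * π * z))) = t * z := by
    intro t z
    field_simp
  simp only [h1]
  generalize Real.sin (2 * π * (m * p.2 + mu p.1)) = sA at *
  generalize Real.cos (2 * π * (m * p.2 + mu p.1)) = cA at *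
  generalize Real.sin (2 * π * s p.1 / L) = sB at *
  generalize Real.cos (2 * π * s p.1 / L) = cB at *
  linear_combination ((2 * π * r p.1) ^ 2 * (m * v.2 + mu' p.1 * v.1) * (m * w.2 + mu' p.1 * w.1)
    + r' p.1 ^ 2 * v.1 * w.1) * hcs + (s' p.1 ^ 2 * v.1 * w.1) * hcs2

theorem result (E F G : ℝ → ℝ)
    (hE : ContDiff ℝ ∞ E) (hF : ContDiff ℝ ∞ F) (hG : ContDiff ℝ ∞ G)
    (pE : Function.Periodic E 1) (pF : Function.Periodic F 1) (pG : Function.Periodic G 1)
    (posG : ∀ x, 0 < G x) (posdet : ∀ x, 0 < E x * G x - F x ^ 2)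
    (htw : ∃ q : ℕ, 0 < q ∧ ∃ z : ℤ, (q : ℝ) * ∫ x in (0:ℝ)..1, F x / G x = z) :
    ∃ Φ : ℝ × ℝ → EuclideanSpace ℝ (Fin 4), ContDiff ℝ ∞ Φ ∧
      (∀ x y, Φ (x + 1, y) = Φ (x, y)) ∧ (∀ x y, Φ (x, y + 1) = Φ (x, y)) ∧
      ∀ p v w : ℝ × ℝ, ⟪fderiv ℝ Φ p v, fderiv ℝ Φ p w⟫_ℝ =
        E p.1 * v.1 * w.1 + F p.1 * (v.1 * w.2 + v.2 * w.1) + G p.1 * v.2 * w.2 := by
  obtain ⟨q, hq, z, hz⟩ := htw
  have hGne : ∀ x, G x ≠ 0 := fun x => (posG x).ne'
  set R : ℝ → ℝ := fun x => √(G x) with hRdef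
  have hR : ContDiff ℝ ∞ R := hG.sqrt hGne
  have hRd : Differentiable ℝ R := (contDiff_infty_iff_deriv.1 hR).1
  have hR' : ContDiff ℝ ∞ (deriv R) := (contDiff_infty_iff_deriv.1 hR).2
  have pR : Function.Periodic R 1 := fun x => by simp only [hRdef, pG x]
  have pR' : Function.Periodic (deriv R) 1 := periodic_deriv pR
  set D : ℝ → ℝ := fun x => E x - F x ^ 2 / G x with hDdef
  have hD : ContDiff ℝ ∞ D := hE.sub ((hF.pow 2).div hG hGne)
  have posD : ∀ x, 0 < D x := by
    intro x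
    have : D x = (E x * G x - F x ^ 2) / G x := by
      simp only [hDdef]
      field_simp [hGne x]
    rw [this]
    exact div_pos (posdet x) (posG x)
  have pD : Function.Periodic D 1 := fun x => by simp only [hDdef, pE x, pF x, pG x]
  obtain ⟨C, hC⟩ := periodic_bounded (h := fun x => deriv R x ^ 2 / D x)
    ((hR'.continuous.pow 2).div hD.continuous (fun x => (posD x).ne'))
    (fun x => by simp only [pR' x, pD x])
  obtain ⟨N, hN⟩ := exists_nat_gt (max C 1)
  have hN1 : (1 : ℝ) < N := lt_of_le_of_lt (le_max_right _ _) hN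
  have hNC : C < N := lt_of_le_of_lt (le_max_left _ _) hN
  set m : ℝ := (q : ℝ) * N with hm
  have hq1 : (1 : ℝ) ≤ q := by exact_mod_cast hq
  have hmN : (N : ℝ) ≤ m := by
    rw [hm]
    nlinarith
  have hm1 : 1 < m := lt_of_lt_of_le hN1 hmN
  have hm0 : m ≠ 0 := by linarith
  have hpi : (3 : ℝ) < π := Real.pi_gt_three
  have hpi0 : π ≠ 0 := Real.pi_ne_zero
  set r : ℝ → ℝ := fun x => R x / (2 * π * m) with hrdef
  set r' : ℝ → ℝ := fun x => deriv R x / (2 * π * m) with hr'def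
  have hr : ContDiff ℝ ∞ r := hR.div_const _
  have hr'c : ContDiff ℝ ∞ r' := hR'.div_const _
  have hrd : ∀ x, HasDerivAt r (r' x) x := fun x => (hRd x).hasDerivAt.div_const _
  have hsmall : ∀ x, r' x ^ 2 < D x := by
    intro x
    have h1 : deriv R x ^ 2 ≤ C * D x := by
      have := hC x
      rwa [div_le_iff₀ (posD x)] at this
    have h2 : C * D x < m * D x := by
      have : C < m := lt_of_lt_of_le hNC hmN
      exact mul_lt_mul_of_pos_right this (posD x)
    have h3 : m ≤ (2 * π * m) ^ 2 := by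
      have h5 : 1 ≤ 2 * π * m := by nlinarith
      have h6 : m ≤ 2 * π * m := by nlinarith
      nlinarith
    have h4 : (0:ℝ) < (2 * π * m) ^ 2 := by positivity
    simp only [hr'def, div_pow]
    rw [div_lt_iff₀ h4]
    have := posD x
    nlinarith
  set W : ℝ → ℝ := fun x => D x - r' x ^ 2 with hWdef
  have posW : ∀ x, 0 < W x := fun x => sub_pos.2 (hsmall x)
  have hW : ContDiff ℝ ∞ W := hD.sub (hr'c.pow 2)
  set V : ℝ → ℝ := fun x => √(W x) with hVdef
  have hV : ContDiff ℝ ∞ V := hW.sqrt (fun x => (posW x).ne')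
  have posV : ∀ x, 0 < V x := fun x => Real.sqrt_pos.2 (posW x)
  have pV : Function.Periodic V 1 := fun x => by
    simp only [hVdef, hWdef, hr'def, pD x, pR' x]
  set s : ℝ → ℝ := fun x => ∫ t in (0:ℝ)..x, V t with hsdef
  have hs : ContDiff ℝ ∞ s := contDiff_primitive hV
  have hsd : ∀ x, HasDerivAt s (V x) x := hasDerivAt_primitive hV.continuous
  set L : ℝ := ∫ t in (0:ℝ)..1, V t with hLdef
  have hL : 0 < L :=
    intervalIntegral.intervalIntegral_pos_of_pos (hV.continuous.intervalIntegrable _ _) posV one_pos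
  have hs1 : ∀ x, s (x + 1) = s x + L := primitive_add_one hV.continuous pV
  set T : ℝ → ℝ := fun x => m * (F x / G x) with hTdef
  have hT : ContDiff ℝ ∞ T := contDiff_const.mul (hF.div hG hGne)
  have pT : Function.Periodic T 1 := fun x => by simp only [hTdef, pF x, pG x]
  set mu : ℝ → ℝ := fun x => ∫ t in (0:ℝ)..x, T t with hmudef
  have hmu : ContDiff ℝ ∞ mu := contDiff_primitive hT
  have hmud : ∀ x, HasDerivAt mu (T x) x := hasDerivAt_primitive hT.continuous
  have hmu1 : ∀ x, mu (x + 1) = mu x + ((N * z : ℤ) : ℝ) := by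
    intro x
    have h1 := primitive_add_one hT.continuous pT x
    have h2 : (∫ t in (0:ℝ)..1, T t) = ((N * z : ℤ) : ℝ) := by
      simp only [hTdef]
      rw [intervalIntegral.integral_const_mul, hm]
      push_cast
      rw [← hz]
      ring
    rw [← h2]
    exact h1
  refine ⟨immersion r mu s m L, immersion_contDiff hr hmu hs, ?_, ?_, ?_⟩
  · intro x y
    have e1 : 2 * π * (m * y + mu (x + 1)) = 2 * π * (m * y + mu x) + ((N * z : ℤ) : ℝ) * (2 * π) := by
      rw [hmu1]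
      ring
    have e2 : 2 * π * s (x + 1) / L = 2 * π * s x / L + 2 * π := by
      rw [hs1]
      field_simp
    have e3 : r (x + 1) = r x := by simp only [hrdef, pR x]
    simp only [immersion, e1, e2, e3, Real.cos_add_int_mul_two_pi, Real.sin_add_int_mul_two_pi,
      Real.cos_add_two_pi, Real.sin_add_two_pi]
  · intro x y
    have e1 : 2 * π * (m * (y + 1) + mu x) = 2 * π * (m * y + mu x) + ((q * N : ℕ) : ℝ) * (2 * π) := by
      rw [hm]
      push_cast
      ring
    simp only [immersion, e1, Real.cos_add_nat_mul_two_pi, Real.sin_add_nat_mul_two_pi]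
  · intro p v w
    rw [immersion_inner hL.ne' hrd hmud hsd]
    have hV2 : V p.1 ^ 2 = D p.1 - r' p.1 ^ 2 := Real.sq_sqrt (posW p.1).le
    have hR2 : R p.1 ^ 2 = G p.1 := Real.sq_sqrt (posG p.1).le
    have hr2 : (2 * π * r p.1) ^ 2 = G p.1 / m ^ 2 := by
      simp only [hrdef]
      rw [← hR2]
      field_simp
    rw [hr2, hV2]
    simp only [hTdef, hDdef]
    have := hGne p.1
    field_simp
    ring

end Vale.Agent.Results.P205.TorusCircleInvariant
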