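import Mathlib
import Vale.Agent.Results.P205.TorusCircleInvariant

open scoped ContDiff InnerProductSpace Real

namespace Vale.Agent.Results.P205.W_WarpedProducts

/-- Every smooth warped product metric `E(x) dx^2 + G(x) dy^2` on the torus `ℝ^2 / ℤ^2` has a smooth
isometric immersion into Euclidean four-space. -/
theorem result (E G : ℝ → ℝ)
    (hE : ContDiff ℝ ∞ E) (hG : ContDiff ℝ ∞ G)
    (pE : Function.Periodic E 1) (pG : Function.Periodic G 1)
    (posE : ∀ x, 0 < E x) (posG : ∀ x, 0 < G x) :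
    ∃ Φ : ℝ × ℝ → EuclideanSpace ℝ (Fin 4), ContDiff ℝ ∞ Φ ∧
      (∀ x y, Φ (x + 1, y) = Φ (x, y)) ∧ (∀ x y, Φ (x, y + 1) = Φ (x, y)) ∧
      ∀ p v w : ℝ × ℝ, ⟪fderiv ℝ Φ p v, fderiv ℝ Φ p w⟫_ℝ =
        E p.1 * v.1 * w.1 + G p.1 * v.2 * w.2 := by
  obtain ⟨Φ, h1, h2, h3, h4⟩ := Vale.Agent.Results.P205.TorusCircleInvariant.result E
    (fun _ => 0) G hE contDiff_const hG pE (fun _ => rfl) pG posG
    (fun x => by
      have := mul_pos (posE x) (posG x)
      simpa using this)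
    ⟨1, one_pos, 0, by simp⟩
  refine ⟨Φ, h1, h2, h3, fun p v w => ?_⟩
  rw [h4 p v w]
  ring

end Vale.Agent.Results.P205.W_WarpedProducts
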